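import Vale.Agent.P268.Hol

/-!
# P290: critical values of holomorphic functions of several variables are countable
-/

open Set Filter Topology
open scoped ContDiff

namespace Vale.Agent.P290.H436

theorem countable_image_of_locally {X Y : Type*} [TopologicalSpace X]
    [SecondCountableTopology X] {f : X → Y} {S : Set X}
    (h : ∀ x ∈ S, ∃ V ∈ 𝓝 x, (f '' (S ∩ V)).Countable) : (f '' S).Countable := by
  choose! V hV hc using h
  obtain ⟨t, ht, htc, hcov⟩ := TopologicalSpace.countable_cover_nhdsWithin
    (s := S) (f := V) (fun x hx => mem_nhdsWithin_of_mem_nhds (hV x hx))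
  have h1 : f '' S ⊆ ⋃ x ∈ t, f '' (S ∩ V x) := by
    rintro _ ⟨y, hy, rfl⟩
    obtain ⟨x, hx, hyx⟩ := mem_iUnion₂.1 (hcov hy)
    exact mem_iUnion₂.2 ⟨x, hx, mem_image_of_mem f ⟨hy, hyx⟩⟩
  exact (htc.biUnion fun x hx => hc x (ht hx)).mono h1

/-- holomorphic Sard theorem for functions: the set of critical values is countable -/
theorem countable_critVal (n : ℕ) : ∀ (E : Type) [NormedAddCommGroup E] [NormedSpace ℂ E]
    [FiniteDimensional ℂ E], Module.finrank ℂ E = n → ∀ (h : E → ℂ) (U : Set E), IsOpen U →
    DifferentiableOn ℂ h U → (h '' {x ∈ U | fderiv ℂ h x = 0}).Countable := by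
  induction n with
  | zero =>
    intro E _ _ _ hE h U hU hh
    have : Subsingleton E := Module.finrank_zero_iff.1 hE
    exact (Set.subsingleton_of_subsingleton.image h).countable
  | succ n ih =>
    intro E _ _ _ hE h U hU hh
    have hE' : ProperSpace E := FiniteDimensional.proper ℂ E
    have han : ∀ x ∈ U, AnalyticAt ℂ h x := fun x hx =>
      Vale.Agent.P268.analyticOnNhd_of_differentiableOn hU hh x hx
    have hcd : ∀ x ∈ U, ContDiffAt ℂ ω h x := fun x hx => (han x hx).contDiffAt
    set Z : ℕ → Set E := fun k => {x ∈ U | (∀ j, 1 ≤ j → j ≤ k → iteratedFDeriv ℂ j h x = 0) ∧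
      iteratedFDeriv ℂ (k + 1) h x ≠ 0} with hZ
    set Z' : Set E := {x ∈ U | ∀ j, 1 ≤ j → iteratedFDeriv ℂ j h x = 0} with hZ'
    have hsub : {x ∈ U | fderiv ℂ h x = 0} ⊆ Z' ∪ ⋃ k : ℕ, Z (k + 1) := by
      rintro x ⟨hx, hx0⟩
      by_cases hall : ∀ j, 1 ≤ j → iteratedFDeriv ℂ j h x = 0
      · exact Or.inl ⟨hx, hall⟩
      · right
        push Not at hall
        classical
        have hex : ∃ j, iteratedFDeriv ℂ (j + 1) h x ≠ 0 := by
          obtain ⟨j, hj1, hj⟩ := hall
          exact ⟨j - 1, by rwa [Nat.sub_add_cancel hj1]⟩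
        have h1 : Nat.find hex ≠ 0 := by
          intro h0
          have h2 := Nat.find_spec hex
          rw [h0] at h2
          apply h2
          ext m
          rw [iteratedFDeriv_succ_apply_right]
          simp [hx0, iteratedFDeriv_zero_apply]
        obtain ⟨k, hk⟩ := Nat.exists_eq_succ_of_ne_zero h1
        refine mem_iUnion.2 ⟨k, hx, ?_, ?_⟩
        · intro j hj hjk
          by_contra hne
          have h3 : j - 1 < Nat.find hex := by omega
          exact Nat.find_min hex h3 (by rwa [Nat.sub_add_cancel hj])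
        · have h2 := Nat.find_spec hex
          rw [hk] at h2
          exact h2
    refine Countable.mono (image_mono hsub) ?_
    rw [image_union, image_iUnion]
    refine Countable.union ?_ (countable_iUnion fun k => ?_)
    · -- all derivatives vanish
      refine countable_image_of_locally fun x hx => ?_
      obtain ⟨p, r, hp⟩ := han x hx.1
      refine ⟨Metric.eball x r, Metric.eball_mem_nhds x hp.r_pos, ?_⟩
      refine (countable_singleton (h x)).mono ?_
      rintro _ ⟨y, ⟨-, hy⟩, rfl⟩
      rw [mem_singleton_iff]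
      have h1 := hp.hasSum_sub hy
      have h2 : ∀ j, j ≠ 0 → (p j fun _ => y - x) = 0 := by
        intro j hj
        have h3 := hp.factorial_smul (y - x) j
        rw [hx.2 j (Nat.one_le_iff_ne_zero.2 hj)] at h3
        simpa [Nat.factorial_ne_zero] using h3
      have h4 := hasSum_single (f := fun j => p j fun _ => y - x) 0 h2
      have h5 := h1.unique h4
      rw [h5]
      exact hp.coeff_zero _
    · refine countable_image_of_locally fun x hx => ?_
      obtain ⟨hxU, hx0, hxne⟩ := hx
      obtain ⟨m, hm⟩ : ∃ m, iteratedFDeriv ℂ (k + 1 + 1) h x m ≠ 0 := by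
        by_contra hcon
        push Not at hcon
        exact hxne (ContinuousMultilinearMap.ext hcon)
      rw [iteratedFDeriv_succ_apply_left] at hm
      -- the defining function of the hypersurface
      set ev : (E [×(k + 1)]→L[ℂ] ℂ) →L[ℂ] ℂ :=
        ContinuousMultilinearMap.apply ℂ (fun _ : Fin (k + 1) => E) ℂ (Fin.tail m) with hev
      set g : E → ℂ := fun y => ev (iteratedFDeriv ℂ (k + 1) h y) with hg
      have hgc : ContDiffAt ℂ ω g x :=
        ev.contDiff.contDiffAt.comp x ((hcd x hxU).iteratedFDeriv_right le_top)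
      have hgd : HasStrictFDerivAt g (fderiv ℂ g x) x := hgc.hasStrictFDerivAt (by simp)
      have hg0 : fderiv ℂ g x ≠ 0 := by
        intro h0
        apply hm
        have h1 : DifferentiableAt ℂ (iteratedFDeriv ℂ (k + 1) h) x :=
          ((hcd x hxU).iteratedFDeriv_right (m := 1) le_top).differentiableAt one_ne_zero
        have h2 : fderiv ℂ g x = ev.comp (fderiv ℂ (iteratedFDeriv ℂ (k + 1) h) x) :=
          (ev.hasFDerivAt.comp x h1.hasFDerivAt).fderiv
        have h3 : (fderiv ℂ g x) (m 0) = 0 := by rw [h0]; rfl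
        rw [h2] at h3
        exact h3
      have hrange : (fderiv ℂ g x).range = ⊤ :=
        LinearMap.range_eq_top.2 (LinearMap.surjective (f := (fderiv ℂ g x : E →ₗ[ℂ] ℂ))
          (fun hcon => hg0 (ContinuousLinearMap.coe_injective hcon)))
      have hker : (fderiv ℂ g x).ker.ClosedComplemented :=
        Submodule.ClosedComplemented.of_finiteDimensional _
      set Φ := HasStrictFDerivAt.implicitFunctionDataOfComplemented g (fderiv ℂ g x) hgd hrange hker
        with hΦ
      set P := Classical.choose hker with hP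
      have hfin : Module.finrank ℂ (fderiv ℂ g x).ker = n := by
        have h1 := LinearMap.finrank_range_add_finrank_ker (fderiv ℂ g x : E →ₗ[ℂ] ℂ)
        have h2 : (fderiv ℂ g x : E →ₗ[ℂ] ℂ).range = ⊤ := hrange
        rw [h2, finrank_top, Module.finrank_self, hE] at h1
        have h3 : Module.finrank ℂ (fderiv ℂ g x : E →ₗ[ℂ] ℂ).ker = n := by omega
        exact h3
      have hgx : g x = 0 := by
        simp [hg, hx0 (k + 1) (Nat.le_add_left 1 k) le_rfl]
      have hγc : ContDiffAt ℂ ω Φ.implicitFunction.uncurry (Φ.prodFun Φ.pt) := by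
        refine ImplicitFunctionData.contDiffAt_implicitFunction (φ := Φ) hgc ?_ (by simp)
        have h1 : ContDiff ℂ ω fun y : E => P (y - x) :=
          P.contDiff.comp (contDiff_id.sub contDiff_const)
        exact h1.contDiffAt
      have hpt : Φ.prodFun Φ.pt = (0, 0) := by
        change (g x, P (x - x)) = (0, 0)
        rw [hgx, sub_self, map_zero]
      rw [hpt] at hγc
      set γ : (fderiv ℂ g x).ker → E := fun s => Φ.implicitFunction 0 s with hγ
      have hγd : ContDiffAt ℂ ω γ 0 :=
        hγc.comp (0 : (fderiv ℂ g x).ker) (contDiffAt_const.prodMk contDiffAt_id)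
      have hγ0 : γ 0 = x := by
        have h1 := Φ.implicitFunction_apply_image.self_of_nhds
        have h2 : Φ.implicitFunction (g x) (P (x - x)) = x := h1
        rw [hgx, sub_self, map_zero] at h2
        exact h2
      have hev1 : ∀ᶠ s in 𝓝 (0 : (fderiv ℂ g x).ker), ContDiffAt ℂ 1 γ s :=
        (hγd.of_le le_top).eventually (by simp)
      have hev2 : ∀ᶠ s in 𝓝 (0 : (fderiv ℂ g x).ker), γ s ∈ U := by
        apply hγd.continuousAt
        rw [hγ0]
        exact hU.mem_nhds hxU
      obtain ⟨W, hW, hWo, h0W⟩ := eventually_nhds_iff.1 (hev1.and hev2)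
      have hcount := ih (fderiv ℂ g x).ker hfin (h ∘ γ) W hWo (by
        intro s hs
        refine DifferentiableAt.differentiableWithinAt ?_
        exact (((han _ (hW s hs).2).differentiableAt).comp s
          ((hW s hs).1.differentiableAt one_ne_zero)))
      have hback : ∀ᶠ y in 𝓝 x, Φ.implicitFunction (g y) (P (y - x)) = y :=
        Φ.implicitFunction_apply_image
      have hPc : ∀ᶠ y in 𝓝 x, P (y - x) ∈ W := by
        have h1 : ContinuousAt (fun y => P (y - x)) x := by fun_prop
        have h2 : W ∈ 𝓝 (P (x - x)) := by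
          rw [sub_self, map_zero]
          exact hWo.mem_nhds h0W
        exact h1 h2
      refine ⟨{y | Φ.implicitFunction (g y) (P (y - x)) = y ∧ P (y - x) ∈ W}, hback.and hPc, ?_⟩
      refine hcount.mono ?_
      rintro _ ⟨y, ⟨⟨hyU, hy0, -⟩, hy1, hy2⟩, rfl⟩
      have hgy : g y = 0 := by
        simp [hg, hy0 (k + 1) (Nat.le_add_left 1 k) le_rfl]
      rw [hgy] at hy1
      refine ⟨P (y - x), ⟨hy2, ?_⟩, ?_⟩
      · have h1 : fderiv ℂ h y = 0 := by
          ext v
          have h2 := hy0 1 le_rfl (Nat.le_add_left 1 k)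
          have h3 : iteratedFDeriv ℂ 1 h y (fun _ => v) = 0 := by rw [h2]; rfl
          rw [iteratedFDeriv_one_apply] at h3
          exact h3
        have h4 : fderiv ℂ (h ∘ γ) (P (y - x)) =
            (fderiv ℂ h (γ (P (y - x)))).comp (fderiv ℂ γ (P (y - x))) :=
          fderiv_comp _ ((han _ (hW _ hy2).2).differentiableAt)
            ((hW _ hy2).1.differentiableAt one_ne_zero)
        rw [h4]
        have h5 : γ (P (y - x)) = y := hy1
        rw [h5, h1, ContinuousLinearMap.zero_comp]
      · exact congrArg h hy1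

end Vale.Agent.P290.H436
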