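import Vale.Agent.P290.K.AllDefs
import Vale.Agent.P290.H436.Sard

/-!
# P290: regular values of holomorphic maps from complex surfaces to Riemann surfaces
-/

open Set Filter Topology
open scoped Manifold ContDiff

set_option linter.unusedSectionVars false

noncomputable section

namespace Vale.Agent.P290.H436

open All

/-- transition maps between charts of a complex manifold are holomorphic -/
theorem trans_diff {E M : Type*} [NormedAddCommGroup E] [NormedSpace ℂ E] [TopologicalSpace M]
    [ChartedSpace E M] [IsManifold 𝓘(ℂ, E) ω M] {e e' : OpenPartialHomeomorph M E}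
    (he : e ∈ atlas E M) (he' : e' ∈ atlas E M) {x : M} (hx : x ∈ e.source)
    (hx' : x ∈ e'.source) : DifferentiableAt ℂ (fun z => e' (e.symm z)) (e x) := by
  have h := (contDiffGroupoid ω 𝓘(ℂ, E)).compatible he he'
  rw [contDiffGroupoid, mem_groupoid_of_pregroupoid, contDiffPregroupoid] at h
  have h1 := h.1
  simp only [modelWithCornersSelf_coe, modelWithCornersSelf_coe_symm,
    Function.comp_id, Function.id_comp, range_id, preimage_id, inter_univ] at h1
  have h2 : e x ∈ (e.symm.trans e').source := by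
    rw [OpenPartialHomeomorph.trans_source]
    exact ⟨e.map_source hx, by simpa [e.left_inv hx] using hx'⟩
  exact ((h1.contDiffAt ((e.symm.trans e').open_source.mem_nhds h2)).differentiableAt (by simp))

section

variable {X C : Type} [TopologicalSpace X] [ChartedSpace C2 X] [TopologicalSpace C]
  [ChartedSpace ℂ C]

/-- `π` in the charts `e`, `t` -/
def loc (e : OpenPartialHomeomorph X C2) (t : OpenPartialHomeomorph C ℂ) (π : X → C) (z : C2) :
    ℂ := t (π (e.symm z))

theorem critical_iff_fderiv {π : X → C} {x : X} (h : HolC π x) :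
    Critical π x ↔ fderiv ℂ (loc (chartAt C2 x) (chartAt ℂ (π x)) π) (chartAt C2 x x) = 0 := by
  set e := chartAt C2 x with he
  set t := chartAt ℂ (π x) with ht
  have hd : HasFDerivAt (loc e t π) (fderiv ℂ (loc e t π) (e x)) (e x) := h.2.hasFDerivAt
  have h1 : HasDerivAt (fun s => t (π (e.symm (s, (e x).2))))
      ((fderiv ℂ (loc e t π) (e x)) (1, 0)) (e x).1 := by
    have h2 : HasDerivAt (fun s : ℂ => (s, (e x).2)) ((1 : ℂ), (0 : ℂ)) (e x).1 :=
      (hasDerivAt_id _).prodMk (hasDerivAt_const _ _)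
    exact hd.comp_hasDerivAt_of_eq (e x).1 h2 rfl
  have h3 : HasDerivAt (fun s => t (π (e.symm ((e x).1, s))))
      ((fderiv ℂ (loc e t π) (e x)) (0, 1)) (e x).2 := by
    have h2 : HasDerivAt (fun s : ℂ => ((e x).1, s)) ((0 : ℂ), (1 : ℂ)) (e x).2 :=
      (hasDerivAt_const _ _).prodMk (hasDerivAt_id _)
    exact hd.comp_hasDerivAt_of_eq (e x).2 h2 rfl
  constructor
  · intro hc
    obtain ⟨ha, hb⟩ := hc e t (e x) rfl rfl rfl
    rw [h1.deriv] at ha
    rw [h3.deriv] at hb
    ext
    · simpa using ha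
    · simpa using hb
  · rintro h0 e' t' y rfl rfl rfl
    refine ⟨?_, ?_⟩
    · rw [h1.deriv, h0]; rfl
    · rw [h3.deriv, h0]; rfl

variable [IsManifold 𝓘(ℂ, C2) ω X] [IsManifold 𝓘(ℂ) ω C]

/-- change of charts -/
theorem loc_change {π : X → C} {x : X} (hπ : ContinuousAt π x)
    {e e' : OpenPartialHomeomorph X C2} (he : e ∈ atlas C2 X) (he' : e' ∈ atlas C2 X)
    {t t' : OpenPartialHomeomorph C ℂ} (ht : t ∈ atlas ℂ C) (ht' : t' ∈ atlas ℂ C)
    (hx : x ∈ e.source) (hx' : x ∈ e'.source) (hp : π x ∈ t.source) (hp' : π x ∈ t'.source)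
    (hd : DifferentiableAt ℂ (loc e' t' π) (e' x)) :
    DifferentiableAt ℂ (loc e t π) (e x) ∧
      (fderiv ℂ (loc e' t' π) (e' x) = 0 → fderiv ℂ (loc e t π) (e x) = 0) := by
  have h1 := trans_diff he he' hx hx'
  have h2 := trans_diff ht' ht hp' hp
  have hex : e' (e.symm (e x)) = e' x := by rw [e.left_inv hx]
  have hloc : loc e' t' π (e' x) = t' (π x) := by rw [loc, e'.left_inv hx']
  have h3 : HasFDerivAt ((fun z => t (t'.symm z)) ∘ loc e' t' π ∘ fun z => e' (e.symm z))
      ((fderiv ℂ (fun z => t (t'.symm z)) (t' (π x))).comp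
        ((fderiv ℂ (loc e' t' π) (e' x)).comp (fderiv ℂ (fun z => e' (e.symm z)) (e x)))) (e x) := by
    refine HasFDerivAt.comp (e x) ?_ (HasFDerivAt.comp (e x) ?_ h1.hasFDerivAt)
    · simp only [Function.comp_apply]
      rw [hex, hloc]
      exact h2.hasFDerivAt
    · rw [hex]
      exact hd.hasFDerivAt
  have h4 : (fun z => t (t'.symm z)) ∘ loc e' t' π ∘ (fun z => e' (e.symm z)) =ᶠ[𝓝 (e x)]
      loc e t π := by
    have h5 : ∀ᶠ z in 𝓝 (e x), e.symm z ∈ e'.source := by
      apply (e.continuousAt_symm (e.map_source hx))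
      rw [e.left_inv hx]
      exact e'.open_source.mem_nhds hx'
    have h6 : ∀ᶠ z in 𝓝 (e x), π (e.symm z) ∈ t'.source := by
      have h7 : ContinuousAt (fun z => π (e.symm z)) (e x) := by
        refine ContinuousAt.comp (g := π) ?_ (e.continuousAt_symm (e.map_source hx))
        rw [e.left_inv hx]
        exact hπ
      have h8 : t'.source ∈ 𝓝 (π (e.symm (e x))) := by
        rw [e.left_inv hx]
        exact t'.open_source.mem_nhds hp'
      exact h7 h8
    filter_upwards [h5, h6] with z hz5 hz6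
    simp only [Function.comp_apply, loc]
    rw [e'.left_inv hz5, t'.left_inv hz6]
  have h5 := h3.congr_of_eventuallyEq h4.symm
  refine ⟨h5.differentiableAt, fun h0 => ?_⟩
  rw [h5.fderiv, h0]
  simp

/-- in arbitrary charts -/
theorem critical_iff {π : X → C} {x : X} (h : HolC π x)
    {e : OpenPartialHomeomorph X C2} (he : e ∈ atlas C2 X)
    {t : OpenPartialHomeomorph C ℂ} (ht : t ∈ atlas ℂ C)
    (hx : x ∈ e.source) (hp : π x ∈ t.source) :
    DifferentiableAt ℂ (loc e t π) (e x) ∧ (Critical π x ↔ fderiv ℂ (loc e t π) (e x) = 0) := by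
  have h1 := loc_change h.1 he (chart_mem_atlas C2 x) ht (chart_mem_atlas ℂ (π x)) hx
    (mem_chart_source C2 x) hp (mem_chart_source ℂ (π x)) h.2
  have h2 := loc_change h.1 (chart_mem_atlas C2 x) he (chart_mem_atlas ℂ (π x)) ht
    (mem_chart_source C2 x) hx (mem_chart_source ℂ (π x)) hp h1.1
  exact ⟨h1.1, (critical_iff_fderiv h).trans ⟨h1.2, h2.2⟩⟩

theorem continuous_of_holC {π : X → C} (hπ : ∀ x, HolC π x) : Continuous π :=
  continuous_iff_continuousAt.2 fun x => (hπ x).1

/-- the domain of `loc e t π` -/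
def dom (e : OpenPartialHomeomorph X C2) (t : OpenPartialHomeomorph C ℂ) (π : X → C) : Set C2 :=
  e.target ∩ e.symm ⁻¹' (π ⁻¹' t.source)

theorem isOpen_dom {π : X → C} (hπ : ∀ x, HolC π x) (e : OpenPartialHomeomorph X C2)
    (t : OpenPartialHomeomorph C ℂ) : IsOpen (dom e t π) :=
  e.isOpen_inter_preimage_symm (t.open_source.preimage (continuous_of_holC hπ))

theorem mem_dom {π : X → C} {e : OpenPartialHomeomorph X C2} {t : OpenPartialHomeomorph C ℂ}
    {x : X} (hx : x ∈ e.source) (hp : π x ∈ t.source) : e x ∈ dom e t π :=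
  ⟨e.map_source hx, by simpa [e.left_inv hx] using hp⟩

theorem differentiableOn_loc {π : X → C} (hπ : ∀ x, HolC π x)
    {e : OpenPartialHomeomorph X C2} (he : e ∈ atlas C2 X)
    {t : OpenPartialHomeomorph C ℂ} (ht : t ∈ atlas ℂ C) :
    DifferentiableOn ℂ (loc e t π) (dom e t π) := by
  rintro z ⟨hz1, hz2⟩
  have h1 := (critical_iff (hπ (e.symm z)) he ht (e.map_target hz1) hz2).1
  rw [e.right_inv hz1] at h1
  exact h1.differentiableWithinAt

/-- **the set of critical values is countable** -/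
theorem countable_criticalValues [SecondCountableTopology X] {π : X → C}
    (hπ : ∀ x, HolC π x) : (π '' {x | Critical π x}).Countable := by
  refine countable_image_of_locally fun x0 _ => ?_
  set e := chartAt C2 x0
  set t := chartAt ℂ (π x0)
  have he : e ∈ atlas C2 X := chart_mem_atlas C2 x0
  have ht : t ∈ atlas ℂ C := chart_mem_atlas ℂ (π x0)
  have hc := countable_critVal (Module.finrank ℂ C2) C2 rfl (loc e t π) (dom e t π)
    (isOpen_dom hπ e t) (differentiableOn_loc hπ he ht)
  refine ⟨e.source ∩ π ⁻¹' t.source, ?_, (hc.image t.symm).mono ?_⟩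
  · exact inter_mem (e.open_source.mem_nhds (mem_chart_source C2 x0))
      ((t.open_source.preimage (continuous_of_holC hπ)).mem_nhds (mem_chart_source ℂ (π x0)))
  · rintro _ ⟨x, ⟨hx, hx1, hx2⟩, rfl⟩
    refine ⟨t (π x), ⟨e x, ⟨mem_dom hx1 hx2,
      ((critical_iff (hπ x) he ht hx1 hx2).2).1 hx⟩, ?_⟩, t.left_inv hx2⟩
    rw [loc, e.left_inv hx1]

/-- the set of critical points is closed -/
theorem isClosed_critical {π : X → C} (hπ : ∀ x, HolC π x) : IsClosed {x | Critical π x} := by
  rw [← isOpen_compl_iff, isOpen_iff_mem_nhds]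
  intro x0 hx0
  set e := chartAt C2 x0
  set t := chartAt ℂ (π x0)
  have he : e ∈ atlas C2 X := chart_mem_atlas C2 x0
  have ht : t ∈ atlas ℂ C := chart_mem_atlas ℂ (π x0)
  have hx1 : x0 ∈ e.source := mem_chart_source C2 x0
  have hx2 : π x0 ∈ t.source := mem_chart_source ℂ (π x0)
  have h0 : fderiv ℂ (loc e t π) (e x0) ≠ 0 := fun h =>
    hx0 (((critical_iff (hπ x0) he ht hx1 hx2).2).2 h)
  have hcont : ContinuousAt (fderiv ℂ (loc e t π)) (e x0) := by
    have h1 : AnalyticAt ℂ (loc e t π) (e x0) :=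
      Vale.Agent.P268.analyticOnNhd_of_differentiableOn (isOpen_dom hπ e t)
        (differentiableOn_loc hπ he ht) _ (mem_dom hx1 hx2)
    exact h1.fderiv.continuousAt
  have h2 : ∀ᶠ x in 𝓝 x0, fderiv ℂ (loc e t π) (e x) ≠ 0 :=
    (hcont.comp (e.continuousAt hx1)).eventually_ne h0
  have h3 : ∀ᶠ x in 𝓝 x0, x ∈ e.source := e.open_source.mem_nhds hx1
  have h4 : ∀ᶠ x in 𝓝 x0, π x ∈ t.source := (hπ x0).1 (t.open_source.mem_nhds hx2)
  filter_upwards [h2, h3, h4] with x h5 h6 h7 h8
  exact h5 (((critical_iff (hπ x) he ht h6 h7).2).1 h8)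

theorem isClosed_criticalValues [CompactSpace X] [T2Space C] {π : X → C}
    (hπ : ∀ x, HolC π x) : IsClosed (π '' {x | Critical π x}) :=
  ((isClosed_critical hπ).isCompact.image (continuous_of_holC hπ)).isClosed

/-- **discs of regular values**: every nonempty open subset of `C` contains a closed coordinate
disc all of whose points are regular values -/
theorem exists_regular_disc [CompactSpace X] [T2Space C] [SecondCountableTopology X] {π : X → C}
    (hπ : ∀ x, HolC π x) {W : Set C} (hW : IsOpen W) (hW' : W.Nonempty) :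
    ∃ c ∈ W, ∀ t ∈ atlas ℂ C, c ∈ t.source → ∃ r > 0, Metric.closedBall (t c) r ⊆ t.target ∧
      ∀ z ∈ Metric.closedBall (t c) r, t.symm z ∈ W ∧ ∀ x, π x = t.symm z → ¬ Critical π x := by
  have hcl := isClosed_criticalValues hπ
  have hco := countable_criticalValues hπ
  obtain ⟨c0, hc0⟩ := hW'
  obtain ⟨c, hcW, hcr⟩ : ∃ c ∈ W, c ∉ π '' {x | Critical π x} := by
    by_contra hcon
    push Not at hcon
    set t0 := chartAt ℂ c0
    have h1 : (t0 '' (t0.source ∩ W)).Countable :=
      ((hco.mono fun c hc => hcon c hc.2).image t0)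
    have h2 : IsOpen (t0 '' (t0.source ∩ W)) :=
      t0.isOpen_image_of_subset_source (t0.open_source.inter hW) inter_subset_left
    have h3 : (t0 '' (t0.source ∩ W)).Nonempty :=
      ⟨_, mem_image_of_mem t0 ⟨mem_chart_source ℂ c0, hc0⟩⟩
    obtain ⟨z, hz1, hz2⟩ := (h1.dense_compl ℝ).inter_open_nonempty _ h2 h3
    exact hz2 hz1
  refine ⟨c, hcW, fun t ht hct => ?_⟩
  have hopen : IsOpen (W \ π '' {x | Critical π x}) := hW.sdiff hcl
  have h1 : IsOpen (t.target ∩ t.symm ⁻¹' (W \ π '' {x | Critical π x})) :=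
    t.isOpen_inter_preimage_symm hopen
  have h2 : t c ∈ t.target ∩ t.symm ⁻¹' (W \ π '' {x | Critical π x}) :=
    ⟨t.map_source hct, by simpa [t.left_inv hct] using ⟨hcW, by simpa using hcr⟩⟩
  obtain ⟨r, hr, hball⟩ := Metric.nhds_basis_closedBall.mem_iff.1 (h1.mem_nhds h2)
  refine ⟨r, hr, fun z hz => (hball hz).1, fun z hz => ⟨(hball hz).2.1, fun x hx hcx => ?_⟩⟩
  exact (hball hz).2.2 ⟨x, hcx, hx⟩

end

end Vale.Agent.P290.H436
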